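import Crest.Agent.R163.Q3.D.B6.P0_0
import Crest.Agent.R163.Q3.D.B6.P0_1

set_option autoImplicit false
set_option maxRecDepth 100000
set_option linter.all false
set_option Elab.async false

namespace Crest.Agent.R163.B6

theorem o0_8 : Ok2 par f8 Box3.unit C0 :=
  (Ok2.part 75557863709407418603007 (Ok2.part 1073741823 p0_8_0 p0_8_1) (Ok2.part 127 p0_8_6 (Ok2.split 0 (Ok2.part 4 p0_8_4 (Ok2.split 1 p0_8_2 p0_8_3)) p0_8_5)))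
theorem o0_7 : Ok2 par f7 Box3.unit C0 :=
  (Ok2.part 75557863714917861643775 p0_7_2 (Ok2.part 127 p0_7_0 p0_7_1))
theorem o0_6 : Ok2 par f6 Box3.unit C0 :=
  (Ok2.part 75555693430770251945471 p0_6_11 (Ok2.part 63 p0_6_10 (Ok2.split 0 (Ok2.part 163391 p0_6_4 (Ok2.split 1 p0_6_3 (Ok2.part 41 p0_6_2 (Ok2.split 0 p0_6_0 p0_6_1)))) (Ok2.part 8257572 p0_6_9 (Ok2.split 1 p0_6_8 (Ok2.part 15 p0_6_7 (Ok2.split 0 p0_6_5 p0_6_6)))))))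
theorem o0_5 : Ok2 par f5 Box3.unit C0 :=
  (Ok2.part 75557859665503781388287 p0_5_4 (Ok2.split 0 p0_5_3 (Ok2.part 7 p0_5_2 (Ok2.split 1 p0_5_0 p0_5_1))))
theorem o0_4 : Ok2 par f4 Box3.unit C0 :=
  (Ok2.part 37801918235452987408383 p0_4_6 (Ok2.split 0 p0_4_5 (Ok2.part 205 p0_4_4 (Ok2.split 1 p0_4_3 (Ok2.part 9 p0_4_2 (Ok2.split 0 p0_4_0 p0_4_1))))))
theorem o0_3 : Ok2 par f3 Box3.unit C0 :=
  (Ok2.part 37808979862978516844543 p0_3_16 (Ok2.split 1 (Ok2.part 270532462 p0_3_5 (Ok2.split 0 (Ok2.part 1029 p0_3_3 (Ok2.split 1 (Ok2.part 240 p0_3_0 p0_3_1) p0_3_2)) p0_3_4)) (Ok2.part 65012627 p0_3_15 (Ok2.split 0 p0_3_14 (Ok2.part 98304 p0_3_13 (Ok2.split 1 p0_3_12 (Ok2.part 122886 p0_3_11 (Ok2.split 0 p0_3_10 (Ok2.split 1 p0_3_9 (Ok2.part 67 p0_3_8 (Ok2.split 0 p0_3_6 p0_3_7)))))))))))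
theorem o0_2 : Ok2 par f2 Box3.unit C0 :=
  (Ok2.part 75484076749619367772159 p0_2_0 p0_2_1)
theorem o0_1 : Ok2 par f1 Box3.unit C0 :=
  p0_1_0
theorem o0_0 : Ok2 par f0 Box3.unit C0 :=
  p0_0_0

theorem pt0 : PtAll2 par C0 :=
  PtAll2.of_okD hw (OkD2.cover [f0.dom,f1.dom,f2.dom,f3.dom,f4.dom,f5.dom,f6.dom,f7.dom,f8.dom]
    (.split 0 (.split 0 (.leaf 0) (.leaf 1)) (.split 1 (.split 0 (.leaf 2) (.leaf 3)) (.split 0 (.leaf 4) (.split 1 (.leaf 5) (.split 0 (.leaf 6) (.split 1 (.leaf 7) (.leaf 8)))))))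
    (by decide +kernel)
    (List.forall_mem_cons.2 ⟨OkD2.of_ok o0_0, (List.forall_mem_cons.2 ⟨OkD2.of_ok o0_1, (List.forall_mem_cons.2 ⟨OkD2.of_ok o0_2, (List.forall_mem_cons.2 ⟨OkD2.of_ok o0_3, (List.forall_mem_cons.2 ⟨OkD2.of_ok o0_4, (List.forall_mem_cons.2 ⟨OkD2.of_ok o0_5, (List.forall_mem_cons.2 ⟨OkD2.of_ok o0_6, (List.forall_mem_cons.2 ⟨OkD2.of_ok o0_7, (List.forall_mem_cons.2 ⟨OkD2.of_ok o0_8, (fun _ h => nomatch h)⟩)⟩)⟩)⟩)⟩)⟩)⟩)⟩)⟩))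

end Crest.Agent.R163.B6
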